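import Vale.Agent.P127H.Final

namespace Vale.Agent.Results.P127.Cylinder

open MeasureTheory Set Metric Vale.Agent.P127H

theorem axis (k : ℕ) (b : ℝ) (hb : 0 ≤ b) (A : ℕ → Set (E k)) (hA : ∀ j, BoxLe (A j) b)
    (K : Set (E k))
    (hK : ∀ e : E k, ‖e‖ = 1 → ∃ a, (∀ t ∈ Icc (0 : ℝ) 1, a + t • e ∈ K) ∧
      ∃ (s r : ℝ) (j : ℕ), a + s • e + r • stem k ∈ A j) :
    ENNReal.ofReal (k + 2 - b) ≤ dimH K := by
  have hk : (0 : ℝ) < k + 2 := by positivity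
  have main : ∀ s : ℝ, 0 < s → s + b < k + 2 → μH[s] K ≠ 0 := by
    intro s hs hsb h0
    have hn := fun p : ℕ × ℕ => null (T := (p.1 : ℝ) + 1) (ℓ := 1 / (k + 2)) hb hs hsb
      (by simp) (by positivity) (hA p.2) h0
    refine (measure_closedBall_pos volume (0 : W k) one_pos).ne'
      (measure_mono_null ?_ (measure_iUnion_null hn))
    intro w hw
    obtain ⟨h1, h2⟩ := dir_norm w hw
    have h3 : 0 < ‖dir w‖ := by linarith
    obtain ⟨a, ha, s₀, r, j, hy⟩ := hK (‖dir w‖⁻¹ • dir w) (norm_smul_inv_norm (norm_pos_iff.1 h3))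
    obtain ⟨T, hT⟩ := exists_nat_ge |(-s₀ / ‖dir w‖)|
    refine mem_iUnion.2 ⟨(T, j), hw, _, hy, -r, -s₀ / ‖dir w‖, fun t ht => ⟨?_, ?_⟩⟩
    · have h4 : 1 / ((k : ℝ) + 2) ≤ 1 := by
        rw [div_le_one hk]
        linarith
      have := abs_le.1 hT
      have h5 := ht.1
      have h6 := ht.2
      rw [abs_le]
      constructor <;> linarith
    · have h4 := ht.1
      have h5 := ht.2
      rw [div_le_iff₀ h3] at h4
      have h6 : (t - -s₀ / ‖dir w‖) * ‖dir w‖ ≤ 1 / ((k : ℝ) + 2) * (k + 2) :=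
        mul_le_mul (by linarith) h2 h3.le (by positivity)
      rw [sub_mul, div_mul_cancel₀ _ h3.ne', div_mul_cancel₀ _ hk.ne'] at h6
      have h7 := ha (s₀ + t * ‖dir w‖) ⟨by linarith, by linarith⟩
      convert h7 using 1
      rw [add_smul, mul_smul, smul_inv_smul₀ h3.ne', neg_smul]
      abel
  refine ENNReal.le_of_forall_pos_nnreal_lt fun r hr0 hr => ?_
  refine le_dimH_of_hausdorffMeasure_ne_zero (main r hr0 ?_)
  have := ENNReal.coe_lt_ofReal.1 hr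
  linarith

theorem result (n : ℕ) (hn : 2 ≤ n) (b : ℝ) (hb : 0 ≤ b) (z : EuclideanSpace ℝ (Fin n))
    (hz : ‖z‖ = 1) (A : ℕ → Set (EuclideanSpace ℝ (Fin n))) (hA : ∀ j, BoxLe (A j) b)
    (K : Set (EuclideanSpace ℝ (Fin n)))
    (hK : ∀ e : EuclideanSpace ℝ (Fin n), ‖e‖ = 1 → ∃ a, (∀ t ∈ Icc (0 : ℝ) 1, a + t • e ∈ K) ∧
      ∃ (s r : ℝ) (j : ℕ), a + s • e + r • z ∈ A j) :
    ENNReal.ofReal (n - b) ≤ dimH K := by
  obtain ⟨k, rfl⟩ := Nat.exists_eq_add_of_le' hn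
  have hs : ‖stem k‖ = 1 := by simp [stem]
  let R : E k ≃ₗᵢ[ℝ] E k := Submodule.reflection (ℝ ∙ (z - stem k))ᗮ
  have hR : R z = stem k := Submodule.reflection_sub (hz.trans hs.symm)
  rw [← R.isometry.dimH_image K]
  push_cast
  refine axis k b hb (fun j => R '' A j) (fun j ε hε => ?_) _ fun e he => ?_
  · classical
    obtain ⟨C, hC⟩ := hA j ε hε
    refine ⟨C, fun δ hδ => ?_⟩
    obtain ⟨S, h1, h2⟩ := hC δ hδ
    refine ⟨S.image R, le_trans (by exact_mod_cast Finset.card_image_le) h1, ?_⟩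
    rintro _ ⟨y, hy, rfl⟩
    obtain ⟨p, hp, hyp⟩ := mem_iUnion₂.1 (h2 hy)
    exact mem_iUnion₂.2 ⟨R p, Finset.mem_image_of_mem _ hp, by simpa using hyp⟩
  · obtain ⟨a, ha, s, r, j, hy⟩ := hK (R.symm e) (by simpa using he)
    refine ⟨R a, fun t ht => ⟨_, ha t ht, by simp⟩, s, r, j, _, hy, ?_⟩
    simp [hR]

end Vale.Agent.Results.P127.Cylinder
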